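import Mathlib

/-! # P126: a dimension-free (but exponential) duality bound for covering numbers -/

namespace P126
open scoped RealInnerProductSpace

variable {n : ℕ}

/-- Euclidean space `ℝ^n`. -/
abbrev E (n : ℕ) := EuclideanSpace ℝ (Fin n)

/-- Origin-symmetric convex body. -/
def SymBody (K : Set (E n)) : Prop :=
  IsCompact K ∧ Convex ℝ K ∧ (interior K).Nonempty ∧ ∀ x ∈ K, -x ∈ K

/-- The polar body. -/
def polar (K : Set (E n)) : Set (E n) := {y | ∀ x ∈ K, ⟪x, y⟫ ≤ 1}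

/-- `A` is covered by at most `m` translates of `B`. -/
def Covers (A B : Set (E n)) (m : ℕ) : Prop :=
  ∃ X : Finset (E n), X.card ≤ m ∧ ∀ a ∈ A, ∃ x ∈ X, ∃ b ∈ B, a = x + b

/-- symmetric convex set (no compactness) -/
def SymConv (K : Set (E n)) : Prop :=
  Convex ℝ K ∧ (0 : E n) ∈ K ∧ ∀ x ∈ K, -x ∈ K

theorem symConv_polar (K : Set (E n)) (hs : ∀ x ∈ K, -x ∈ K) : SymConv (polar K) := by
  refine ⟨?_, ?_, ?_⟩
  · intro y hy y' hy' a b ha hb hab x hx
    have h1 := hy x hx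
    have h2 := hy' x hx
    rw [inner_add_right, inner_smul_right, inner_smul_right]
    nlinarith
  · intro x _
    simp
  · intro y hy x hx
    have := hy (-x) (hs x hx)
    simpa using this

/-- scaling inside a symmetric convex set -/
theorem smul_mem {K : Set (E n)} (hK : SymConv K) {x : E n} (hx : x ∈ K) {t : ℝ} (h0 : 0 ≤ t)
    (h1 : t ≤ 1) : t • x ∈ K := by
  have := hK.1 hx hK.2.1 h0 (by linarith : 0 ≤ 1 - t) (by ring)
  simpa using this

/-- segment argument: if `K` is covered by at most `m` translates of `L` then `⟪x, y⟫ ≤ m`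
for `x ∈ K`, `y ∈ polar L`. -/
theorem inner_le_of_covers {K L : Set (E n)} (hK : SymConv K) (hL : ∀ x ∈ L, -x ∈ L) {m : ℕ}
    (h : Covers K L m) {x y : E n} (hx : x ∈ K) (hy : y ∈ polar L) : ⟪x, y⟫ ≤ m := by
  obtain ⟨X, hXc, hX⟩ := h
  have hm : 0 < m := by
    obtain ⟨x0, hx0, -⟩ := hX x hx
    exact lt_of_lt_of_le (Finset.card_pos.2 ⟨x0, hx0⟩) hXc
  have hmR : (0 : ℝ) < m := by exact_mod_cast hm
  -- points t_j x, t_j = -1 + 2 j / m, j = 0..m
  let t : Fin (m + 1) → ℝ := fun j => -1 + 2 * (j : ℝ) / m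
  have ht : ∀ j, t j • x ∈ K := by
    intro j
    have hj : ((j : ℕ) : ℝ) ≤ m := by exact_mod_cast Nat.lt_succ_iff.1 j.2
    have hj0 : (0 : ℝ) ≤ ((j : ℕ) : ℝ) := by positivity
    have hq : 2 * ((j : ℕ) : ℝ) / m ≤ 2 := by
      rw [div_le_iff₀ hmR]; linarith
    have hq0 : 0 ≤ 2 * ((j : ℕ) : ℝ) / m := by positivity
    rcases le_total 0 (t j) with h0 | h0
    · exact smul_mem hK hx h0 (by simp only [t]; linarith)
    · have := smul_mem hK (hK.2.2 x hx) (t := -(t j)) (by linarith) (by simp only [t]; linarith)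
      simpa using this
  choose c hc using fun j => hX (t j • x) (ht j)
  have hmaps : ∀ j ∈ (Finset.univ : Finset (Fin (m + 1))), c j ∈ X := fun j _ => (hc j).1
  have hcard : X.card < (Finset.univ : Finset (Fin (m + 1))).card := by
    simp only [Finset.card_univ, Fintype.card_fin]; omega
  obtain ⟨i, -, j, -, hij, hcij⟩ := Finset.exists_ne_map_eq_of_card_lt_of_maps_to hcard hmaps
  -- wlog i < j
  have key : ∀ i j : Fin (m + 1), i < j → c i = c j → ⟪x, y⟫ ≤ m := by
    intro i j hlt hcij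
    obtain ⟨-, b, hb, hbe⟩ := hc i
    obtain ⟨-, b', hb', hbe'⟩ := hc j
    have hdiff : (t j - t i) • x = b' + (-b) := by
      rw [sub_smul, hbe, hbe', hcij]; abel
    have h1 : ⟪b', y⟫ ≤ 1 := hy b' hb'
    have h2 : ⟪-b, y⟫ ≤ 1 := hy (-b) (hL b hb)
    have h3 : (t j - t i) * ⟪x, y⟫ ≤ 2 := by
      have : ⟪(t j - t i) • x, y⟫ = (t j - t i) * ⟪x, y⟫ := by
        rw [real_inner_smul_left]
      rw [← this, hdiff, inner_add_left]; linarith
    have h4 : 2 / (m : ℝ) ≤ t j - t i := by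
      have hlt' : ((i : ℕ) : ℝ) + 1 ≤ ((j : ℕ) : ℝ) := by exact_mod_cast hlt
      have : t j - t i = 2 * (((j : ℕ) : ℝ) - ((i : ℕ) : ℝ)) / m := by
        simp only [t]; ring
      rw [this]
      apply div_le_div_of_nonneg_right _ hmR.le
      linarith
    by_contra hcon
    push Not at hcon
    have hpos : 0 < ⟪x, y⟫ := lt_trans hmR hcon
    have : 2 / (m : ℝ) * ⟪x, y⟫ ≤ 2 := le_trans (mul_le_mul_of_nonneg_right h4 hpos.le) h3
    rw [div_mul_eq_mul_div, div_le_iff₀ hmR] at this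
    linarith
  rcases lt_or_gt_of_ne hij with h | h
  · exact key i j h hcij
  · exact key j i h hcij.symm

end P126
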