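import Vale.Agent.Lib.P126.Core

namespace P126
open scoped RealInnerProductSpace Pointwise

variable {n : ℕ}

theorem symConv_of_symBody {K : Set (E n)} (hK : SymBody K) : SymConv K := by
  obtain ⟨-, hconv, ⟨x0, hx0⟩, hsym⟩ := hK
  refine ⟨hconv, ?_, hsym⟩
  have h1 := interior_subset hx0
  have := hconv h1 (hsym x0 h1) (a := 1/2) (b := 1/2) (by norm_num) (by norm_num) (by norm_num)
  simpa using this

open Classical in
theorem core {K L : Set (E n)} (hK : SymConv K) (hL : SymConv L) {m : ℕ} (h : Covers K L m) :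
    ∃ Y : Finset (E n), Y.card ≤ (2 * m + 3) ^ m ∧
      ∀ y ∈ polar L, ∃ y' ∈ Y, ∀ x ∈ K, ⟪x, y - y'⟫ ≤ 3 := by
  have hbound := fun (x y : E n) (hx : x ∈ K) (hy : y ∈ polar L) =>
    inner_le_of_covers hK hL.2.2 h hx hy
  have hpolsym := (symConv_polar L hL.2.2).2.2
  obtain ⟨X, hXc, hX⟩ := h
  let X' : Finset (E n) := X.filter (fun x => ∃ b ∈ L, x + b ∈ K)
  have hX'c : X'.card ≤ m := le_trans (Finset.card_filter_le _ _) hXc
  have hub : ∀ x ∈ X', ∀ y ∈ polar L, ⟪x, y⟫ ≤ (m : ℝ) + 1 := by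
    intro x hx y hy
    obtain ⟨-, b, hb, hxb⟩ := Finset.mem_filter.1 hx
    have h1 := hbound (x + b) y hxb hy
    have h2 : ⟪-b, y⟫ ≤ 1 := hy (-b) (hL.2.2 b hb)
    rw [inner_add_left] at h1
    rw [inner_neg_left] at h2
    linarith
  have hlb : ∀ x ∈ X', ∀ y ∈ polar L, -((m : ℝ) + 1) ≤ ⟪x, y⟫ := by
    intro x hx y hy
    have := hub x hx (-y) (hpolsym y hy)
    rw [inner_neg_right] at this
    linarith
  let c : E n → (↥X' → ℤ) := fun y x => ⌊⟪(x : E n), y⟫⌋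
  let S : Finset (↥X' → ℤ) := Fintype.piFinset (fun _ => Finset.Icc (-((m : ℤ) + 1)) ((m : ℤ) + 1))
  have hcS : ∀ y ∈ polar L, c y ∈ S := by
    intro y hy
    rw [Fintype.mem_piFinset]
    intro x
    rw [Finset.mem_Icc]
    constructor
    · apply Int.le_floor.2
      have := hlb x x.2 y hy
      push_cast
      linarith
    · have h1 : ((⌊⟪(x : E n), y⟫⌋ : ℤ) : ℝ) ≤ (m : ℝ) + 1 :=
        le_trans (Int.floor_le _) (hub x x.2 y hy)
      have h2 : ((⌊⟪(x : E n), y⟫⌋ : ℤ) : ℝ) ≤ (((m : ℤ) + 1 : ℤ) : ℝ) := by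
        push_cast; exact h1
      exact_mod_cast h2
  have hScard : S.card ≤ (2 * m + 3) ^ m := by
    have h1 : S.card = (2 * m + 3) ^ X'.card := by
      simp only [S, Fintype.card_piFinset, Finset.prod_const, Finset.card_univ, Fintype.card_coe,
        Int.card_Icc]
      congr 1
      omega
    rw [h1]
    exact Nat.pow_le_pow_right (by omega) hX'c
  let rep : (↥X' → ℤ) → E n := fun σ =>
    if hσ : ∃ y ∈ polar L, c y = σ then hσ.choose else 0
  refine ⟨S.image rep, le_trans Finset.card_image_le hScard, ?_⟩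
  intro y hy
  have hex : ∃ z ∈ polar L, c z = c y := ⟨y, hy, rfl⟩
  refine ⟨rep (c y), Finset.mem_image_of_mem _ (hcS y hy), ?_⟩
  have hrep : rep (c y) = hex.choose := by
    simp only [rep]
    rw [dif_pos hex]
  have hy' : hex.choose ∈ polar L := hex.choose_spec.1
  have hcy' : c hex.choose = c y := hex.choose_spec.2
  rw [hrep]
  set y' := hex.choose with hy'def
  intro x hx
  obtain ⟨x0, hx0, b, hb, hxe⟩ := hX x hx
  have hx0' : x0 ∈ X' := Finset.mem_filter.2 ⟨hx0, b, hb, hxe ▸ hx⟩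
  have hfl : ⌊⟪x0, y'⟫⌋ = ⌊⟪x0, y⟫⌋ := congrFun hcy' ⟨x0, hx0'⟩
  have h1 : ⟪x0, y⟫ < ⟪x0, y'⟫ + 1 := by
    have a1 := Int.lt_floor_add_one ⟪x0, y⟫
    have a2 := Int.floor_le ⟪x0, y'⟫
    rw [hfl] at a2
    linarith
  have h2 : ⟪b, y⟫ ≤ 1 := hy b hb
  have h3 : ⟪-b, y'⟫ ≤ 1 := hy' (-b) (hL.2.2 b hb)
  rw [inner_neg_left] at h3
  rw [hxe, inner_sub_right, inner_add_left, inner_add_left]
  linarith

theorem mem_smul_of_bipolar {L : Set (E n)} (hL : SymBody L) {w : E n}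
    (hw : ∀ y ∈ polar L, ⟪y, w⟫ ≤ 3) : w ∈ (3 : ℝ) • L := by
  have h0 : (0 : E n) ∈ L := (symConv_of_symBody hL).2.1
  by_contra hcon
  have hnot : (1 / 3 : ℝ) • w ∉ L := by
    intro hmem
    apply hcon
    refine ⟨(1 / 3 : ℝ) • w, hmem, ?_⟩
    simp [smul_smul]
  obtain ⟨f, u, hf, hu⟩ := geometric_hahn_banach_closed_point hL.2.1 hL.1.isClosed hnot
  have hupos : 0 < u := by
    have := hf 0 h0
    simpa using this
  set y0 : E n := (InnerProductSpace.toDual ℝ (E n)).symm f with hy0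
  have hy0f : ∀ a, ⟪y0, a⟫ = f a := fun a => InnerProductSpace.toDual_symm_apply
  have hmem : (1 / u) • y0 ∈ polar L := by
    intro a ha
    rw [inner_smul_right, real_inner_comm, hy0f]
    have := hf a ha
    rw [one_div, inv_mul_le_iff₀ hupos]
    linarith
  have h1 := hw _ hmem
  rw [real_inner_smul_left, hy0f] at h1
  have h2 : f ((1 / 3 : ℝ) • w) = (1 / 3) * f w := by
    rw [map_smul, smul_eq_mul]
  rw [h2] at hu
  rw [one_div, inv_mul_le_iff₀ hupos] at h1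
  linarith

theorem dual_cover {K L : Set (E n)} (hK : SymBody K) (hL : SymBody L) {m : ℕ}
    (h : Covers K L m) : Covers (polar L) ((3 : ℝ) • polar K) ((2 * m + 3) ^ m) := by
  obtain ⟨Y, hYc, hY⟩ := core (symConv_of_symBody hK) (symConv_of_symBody hL) h
  refine ⟨Y, hYc, ?_⟩
  intro y hy
  obtain ⟨y', hy', hyy⟩ := hY y hy
  refine ⟨y', hy', y - y', ⟨(1 / 3 : ℝ) • (y - y'), ?_, by simp [smul_smul]⟩, by abel⟩
  intro x hx
  rw [inner_smul_right]
  have := hyy x hx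
  linarith

theorem primal_cover {K L : Set (E n)} (hK : SymBody K) (hL : SymBody L) {m : ℕ}
    (h : Covers (polar L) (polar K) m) : Covers K ((3 : ℝ) • L) ((2 * m + 3) ^ m) := by
  obtain ⟨Y, hYc, hY⟩ := core (symConv_polar L hL.2.2.2) (symConv_polar K hK.2.2.2) h
  refine ⟨Y, hYc, ?_⟩
  intro x hx
  have hxx : x ∈ polar (polar K) := by
    intro y hy
    rw [real_inner_comm]
    exact hy x hx
  obtain ⟨x', hx', hxy⟩ := hY x hxx
  exact ⟨x', hx', x - x', mem_smul_of_bipolar hL hxy, by abel⟩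

end P126
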