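import Vale.Agent.Lib.P126.WDefs

/-! UNIT U1: a symmetric convex set covered by `m` translates of `L` lies in `m L`. -/

namespace P126
open MeasureTheory
variable {n : ℕ}

/-- U1.  Put `s = x ⬝ᵥ y`; wlog `0 ≤ s`.  For `r ∈ [-s, s]` write `r = t s`, `t ∈ [-1, 1]`; the point
`t • x` is in `K` (convex, symmetric), so `t • x - c i ∈ L` for some `i`, and `y, -y ∈ polar L`
(`L` symmetric) give `|r - c i ⬝ᵥ y| ≤ 1`.  So `Icc (-s) s ⊆ ⋃ i, Icc (c i ⬝ᵥ y - 1) (c i ⬝ᵥ y + 1)`;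
compare the lengths (`measure_mono`, `measure_iUnion_fintype_le`, `Real.volume_Icc`):
`2 s ≤ 2 m`. -/
theorem dot_le_of_covers {K L : Set (Fin n → ℝ)} (hKc : Convex ℝ K) (hKs : ∀ x ∈ K, -x ∈ K)
    (hLs : ∀ x ∈ L, -x ∈ L) {m : ℕ} (h : Covers K L m) {x y : Fin n → ℝ} (hx : x ∈ K)
    (hy : y ∈ polar L) : x ⬝ᵥ y ≤ m := by
  obtain ⟨c, hc⟩ := h
  set s : ℝ := x ⬝ᵥ y with hs
  by_cases hs0 : s ≤ 0
  · exact hs0.trans (Nat.cast_nonneg m)
  push Not at hs0
  have hsub : Set.Icc (-s) s ⊆ ⋃ i, Set.Icc (c i ⬝ᵥ y - 1) (c i ⬝ᵥ y + 1) := by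
    intro r hr
    -- t = r / s ∈ [-1, 1]
    set t : ℝ := r / s with ht
    have ht1 : -1 ≤ t := by
      rw [ht, le_div_iff₀ hs0]; linarith [hr.1]
    have ht2 : t ≤ 1 := by
      rw [ht, div_le_iff₀ hs0]; linarith [hr.2]
    have hmem : t • x ∈ K := by
      have := hKc hx (hKs x hx) (a := (1 + t) / 2) (b := (1 - t) / 2) (by linarith) (by linarith)
        (by ring)
      convert this using 1
      rw [smul_neg, ← sub_eq_add_neg, ← sub_smul]
      congr 1
      ring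
    obtain ⟨i, hi⟩ := hc _ hmem
    have h1 := hy _ hi
    have h2 := hy _ (hLs _ hi)
    rw [sub_dotProduct, smul_dotProduct, smul_eq_mul] at h1
    rw [neg_dotProduct, sub_dotProduct, smul_dotProduct, smul_eq_mul] at h2
    have hr' : t * s = r := by rw [ht]; field_simp
    rw [← hs, hr'] at h1 h2
    exact Set.mem_iUnion.2 ⟨i, ⟨by linarith, by linarith⟩⟩
  have hvol := (measure_mono hsub).trans (measure_iUnion_fintype_le (volume : Measure ℝ) _)
  simp only [Real.volume_Icc] at hvol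
  have e1 : ∀ i : Fin m, ENNReal.ofReal (c i ⬝ᵥ y + 1 - (c i ⬝ᵥ y - 1)) = ENNReal.ofReal 2 := by
    intro i; congr 1; ring
  simp only [e1, Finset.sum_const, Finset.card_univ, Fintype.card_fin, nsmul_eq_mul] at hvol
  have e2 : (m : ENNReal) * ENNReal.ofReal 2 = ENNReal.ofReal (m * 2) := by
    rw [ENNReal.ofReal_mul (Nat.cast_nonneg m), ENNReal.ofReal_natCast]
  rw [e2, ENNReal.ofReal_le_ofReal_iff (by positivity)] at hvol
  linarith

end P126
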