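import Vale.Agent.Lib.P126.U1

/-! UNIT U2: the centres can be taken in `(m + 1) L`. -/

namespace P126
variable {n : ℕ}

theorem neg_mem_polar {L : Set (Fin n → ℝ)} (hLs : ∀ x ∈ L, -x ∈ L) {y : Fin n → ℝ}
    (hy : y ∈ polar L) : -y ∈ polar L := by
  intro x hx
  have := hy (-x) (hLs x hx)
  simpa using this

/-- U2.  Replace every centre `c i` whose translate does not meet `K` by `0`.  If `k ∈ K` and
`k - c i ∈ L` then `c i ⬝ᵥ y = k ⬝ᵥ y - (k - c i) ⬝ᵥ y`, `|k ⬝ᵥ y| ≤ m` (U1 for `y` and `-y`) and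
`|(k - c i) ⬝ᵥ y| ≤ 1`. -/
theorem exists_good_centres {K L : Set (Fin n → ℝ)} (hKc : Convex ℝ K) (hKs : ∀ x ∈ K, -x ∈ K)
    (hLs : ∀ x ∈ L, -x ∈ L) {m : ℕ} (h : Covers K L m) :
    ∃ c : Fin m → (Fin n → ℝ), (∀ x ∈ K, ∃ i, x - c i ∈ L) ∧
      ∀ i, ∀ y ∈ polar L, |c i ⬝ᵥ y| ≤ (m : ℝ) + 1 := by
  classical
  obtain ⟨c, hc⟩ := id h
  refine ⟨fun i => if ∃ k ∈ K, k - c i ∈ L then c i else 0, ?_, ?_⟩
  · intro x hx
    obtain ⟨i, hi⟩ := hc x hx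
    refine ⟨i, ?_⟩
    have hex : ∃ k ∈ K, k - c i ∈ L := ⟨x, hx, hi⟩
    simp only [if_pos hex]
    exact hi
  · intro i y hy
    by_cases hex : ∃ k ∈ K, k - c i ∈ L
    · simp only [if_pos hex]
      obtain ⟨k, hk, hki⟩ := hex
      have h1 : k ⬝ᵥ y ≤ m := dot_le_of_covers hKc hKs hLs h hk hy
      have h2 : k ⬝ᵥ (-y) ≤ m := dot_le_of_covers hKc hKs hLs h hk (neg_mem_polar hLs hy)
      have h3 : (k - c i) ⬝ᵥ y ≤ 1 := hy _ hki
      have h4 : (-(k - c i)) ⬝ᵥ y ≤ 1 := hy _ (hLs _ hki)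
      rw [dotProduct_neg] at h2
      rw [neg_dotProduct] at h4
      rw [sub_dotProduct] at h3 h4
      rw [abs_le]
      constructor <;> linarith
    · simp only [if_neg hex]
      rw [zero_dotProduct, abs_zero]
      positivity

end P126
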