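import Vale.Agent.Lib.P126.WDefs

/-! UNIT U3: covering by the cells of a finite code. -/

namespace P126
open scoped Pointwise
variable {n : ℕ}

/-- U3a.  Choose a representative in every nonempty cell (and `0` for the empty cells); index the
cells by `Fin (card κ)` with `Fintype.equivFin`. -/
theorem covers_of_code {A B : Set (Fin n → ℝ)} {κ : Type} [Fintype κ] (code : (Fin n → ℝ) → κ)
    (h : ∀ y ∈ A, ∀ y' ∈ A, code y = code y' → y - y' ∈ B) : Covers A B (Fintype.card κ) := by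
  classical
  let e := Fintype.equivFin κ
  let rep : κ → (Fin n → ℝ) := fun q => if hq : ∃ y ∈ A, code y = q then hq.choose else 0
  refine ⟨fun i => rep (e.symm i), ?_⟩
  intro x hx
  refine ⟨e (code x), ?_⟩
  have hq : ∃ y ∈ A, code y = code x := ⟨x, hx, rfl⟩
  have hrep : rep (e.symm (e (code x))) = hq.choose := by
    rw [Equiv.symm_apply_apply]
    simp only [rep]
    rw [dif_pos hq]
  show x - rep (e.symm (e (code x))) ∈ B
  rw [hrep]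
  exact h x hx _ hq.choose_spec.1 hq.choose_spec.2.symm

/-- U3b.  For `x ∈ K` take `i` with `x - c i ∈ L`:
`x ⬝ᵥ (y - y') = c i ⬝ᵥ (y - y') + (x - c i) ⬝ᵥ y - (x - c i) ⬝ᵥ y' ≤ 1 + 1 + 1`
(for the last term use `-(x - c i) ∈ L`).  Then `y - y' = 3 • ((1/3) • (y - y'))`. -/
theorem sub_mem_smul_polar {K L : Set (Fin n → ℝ)} (hLs : ∀ x ∈ L, -x ∈ L) {m : ℕ}
    (c : Fin m → (Fin n → ℝ)) (hc : ∀ x ∈ K, ∃ i, x - c i ∈ L) {y y' : Fin n → ℝ}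
    (hy : y ∈ polar L) (hy' : y' ∈ polar L) (h : ∀ i, c i ⬝ᵥ (y - y') ≤ 1) :
    y - y' ∈ (3 : ℝ) • polar K := by
  rw [Set.mem_smul_set]
  refine ⟨(1 / 3 : ℝ) • (y - y'), ?_, ?_⟩
  · intro x hx
    obtain ⟨i, hi⟩ := hc x hx
    have h1 := h i
    have h2 : (x - c i) ⬝ᵥ y ≤ 1 := hy _ hi
    have h3 : (-(x - c i)) ⬝ᵥ y' ≤ 1 := hy' _ (hLs _ hi)
    rw [neg_dotProduct] at h3
    rw [sub_dotProduct] at h2 h3
    rw [dotProduct_sub] at h1
    rw [dotProduct_smul, dotProduct_sub, smul_eq_mul]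
    linarith
  · rw [smul_smul]
    norm_num

/-- U3c.  The code of a real number `a ∈ [-(m+1), m+1]`: `⌊a⌋ + (m + 1) ∈ {0, …, 2m+2}`.
`codeR m a = ⟨(⌊a⌋ + (m+1)).toNat % (2m+3), _⟩`; equal codes of two numbers of the interval give
equal floors, hence `a - a' < 1`. -/
theorem exists_codeR (m : ℕ) : ∃ codeR : ℝ → Fin (2 * m + 3), ∀ a a' : ℝ, |a| ≤ (m : ℝ) + 1 →
    |a'| ≤ (m : ℝ) + 1 → codeR a = codeR a' → a - a' ≤ 1 := by
  refine ⟨fun a => ⟨(⌊a⌋ + (m + 1)).toNat % (2 * m + 3), Nat.mod_lt _ (by omega)⟩, ?_⟩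
  intro a a' ha ha' h
  have hfl : ∀ b : ℝ, |b| ≤ (m : ℝ) + 1 → 0 ≤ ⌊b⌋ + (m + 1) ∧ ⌊b⌋ + (m + 1) < 2 * m + 3 := by
    intro b hb
    have h1 := (abs_le.1 hb).1
    have h2 := (abs_le.1 hb).2
    constructor
    · have : (-(m + 1 : ℤ)) ≤ ⌊b⌋ := by
        rw [Int.le_floor]; push_cast; linarith
      linarith
    · have : ⌊b⌋ ≤ (m + 1 : ℤ) := by
        have h3 : (⌊b⌋ : ℝ) ≤ b := Int.floor_le b
        have h4 : (⌊b⌋ : ℝ) ≤ ((m + 1 : ℤ) : ℝ) := by push_cast; linarith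
        exact_mod_cast h4
      linarith
  have h' : (⌊a⌋ + (m + 1)).toNat % (2 * m + 3) = (⌊a'⌋ + (m + 1)).toNat % (2 * m + 3) := by
    simpa using congrArg Fin.val h
  obtain ⟨p1, p2⟩ := hfl a ha
  obtain ⟨q1, q2⟩ := hfl a' ha'
  have r1 : (⌊a⌋ + (m + 1)).toNat < 2 * m + 3 := by omega
  have r2 : (⌊a'⌋ + (m + 1)).toNat < 2 * m + 3 := by omega
  rw [Nat.mod_eq_of_lt r1, Nat.mod_eq_of_lt r2] at h'
  have hfe : ⌊a⌋ = ⌊a'⌋ := by omega
  have u1 : a < ⌊a⌋ + 1 := Int.lt_floor_add_one a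
  have u2 : (⌊a'⌋ : ℝ) ≤ a' := Int.floor_le a'
  rw [hfe] at u1
  linarith

end P126
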