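import Vale.Agent.Lib.P126.WDefs

/-! UNIT U4: covering numbers of bodies are finite. -/

namespace P126
variable {n : ℕ}

/-- U4.  `0 ∈ interior L` (midpoint of `x` and `-x` for an interior point `x`: `Convex.interior`,
the interior is symmetric since `x ↦ -x` is a homeomorphism).  The open sets `x + interior L`,
`x ∈ K`, cover the compact `K`: `IsCompact.elim_finite_subcover`; enumerate the finite set of centres
by `Fin m` (`Finset.equivFin`). -/
theorem exists_covers {K L : Set (Fin n → ℝ)} (hK : IsCompact K) (hL : SymBody L) :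
    ∃ m, Covers K L m := by
  classical
  obtain ⟨_, hLc, ⟨x0, hx0⟩, hLs⟩ := hL
  have hneg : -x0 ∈ interior L := by
    have h1 : IsOpen ((fun z : Fin n → ℝ => -z) ⁻¹' interior L) :=
      isOpen_interior.preimage continuous_neg
    have h2 : (fun z : Fin n → ℝ => -z) ⁻¹' interior L ⊆ L := by
      intro z hz
      have := hLs _ (interior_subset hz)
      simpa using this
    have h3 := interior_maximal h2 h1
    apply h3
    simpa using hx0
  have h0 : (0 : Fin n → ℝ) ∈ interior L := by
    have := hLc.interior hx0 hneg (a := 1 / 2) (b := 1 / 2) (by norm_num) (by norm_num)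
      (by norm_num)
    simpa using this
  have hopen : ∀ x : Fin n → ℝ, IsOpen {z : Fin n → ℝ | z - x ∈ interior L} := fun x =>
    isOpen_interior.preimage (continuous_id.sub continuous_const)
  have hcov : K ⊆ ⋃ x : Fin n → ℝ, {z : Fin n → ℝ | z - x ∈ interior L} := by
    intro z _
    refine Set.mem_iUnion.2 ⟨z, ?_⟩
    simpa using h0
  obtain ⟨t, ht⟩ := hK.elim_finite_subcover _ hopen hcov
  refine ⟨t.card, fun i => (t.equivFin.symm i : Fin n → ℝ), ?_⟩
  intro z hz
  obtain ⟨x, hx⟩ := Set.mem_iUnion.1 (ht hz)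
  obtain ⟨hxt, hzx⟩ := Set.mem_iUnion.1 hx
  refine ⟨t.equivFin ⟨x, hxt⟩, ?_⟩
  simp only [Equiv.symm_apply_apply]
  exact interior_subset hzx

end P126
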