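import Mathlib

/-! # P126 (duality of metric entropy): definitions.  Bodies live in `Fin n → ℝ`, the inner
product is the dot product. -/

namespace P126

variable {n : ℕ}

/-- Origin-symmetric convex body in `ℝ^n`. -/
def SymBody (K : Set (Fin n → ℝ)) : Prop :=
  IsCompact K ∧ Convex ℝ K ∧ (interior K).Nonempty ∧ ∀ x ∈ K, -x ∈ K

/-- The polar body `K° = {y : ⟨x, y⟩ ≤ 1 for all x ∈ K}`. -/
def polar (K : Set (Fin n → ℝ)) : Set (Fin n → ℝ) := {y | ∀ x ∈ K, x ⬝ᵥ y ≤ 1}

/-- `A` is covered by `m` translates `c i + B` of `B` (arbitrary centres). -/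
def Covers (A B : Set (Fin n → ℝ)) (m : ℕ) : Prop :=
  ∃ c : Fin m → (Fin n → ℝ), ∀ x ∈ A, ∃ i, x - c i ∈ B

/-- The covering number `N(A, B)`: the least number of translates of `B` that cover `A`. -/
noncomputable def covNum (A B : Set (Fin n → ℝ)) : ℕ := sInf {m | Covers A B m}

end P126
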